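import Vale.Agent.P323.H172.HY
import Vale.Agent.P323.H533.Words

/-!
# All typed tasks over a typed stage as a family of letters
-/

namespace Vale.Agent.P323.H172

open CategoryTheory Vale.Agent.P323.Z Vale.Agent.P323.H533

universe u

variable {S : Type u} [Category.{u} S] {a : ℕ → S} {ι : ∀ n, a n ⟶ a (n + 1)}

/-- The family of letters given by all tasks. -/
noncomputable def letters (hS : IsStage S a ι) : Letters.{u, u, u, u} S :=
  haveI := hS.monoPB
  { a := a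
    io := ι
    T := STask S a ι
    n := fun τ => τ.n
    c := fun τ => τ.c
    al := fun τ => τ.α
    H := fun τ x => τ.H x
    hm := fun _ {_ _} f ω => SPG.map f ω
    hm_id := fun _ {_} ω => SPG.map_id ω
    hm_comp := fun _ {_ _ _} f g ω => SPG.map_comp f g ω
    gam := fun τ {_} ω => τ.gam ω
    gam_nat := fun τ {_ _} f ω => τ.gam_map f ω }

theorem letters_good (hS : IsStage S a ι) : (letters hS).Good :=
  haveI := hS.monoPB
  { mono := hS.mono
    pb := hS.pb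
    io_ns := hS.ι_not
    H_inj := fun _ {_ _} f _ _ h => SPG.map_inj f h
    H_pb := fun _ {_ _ _ _} {_ _ _ _} hp _ _ h => SPG.map_pb hp h }

/-- the universal germ `[1, 1]` -/
noncomputable def om0 (hS : IsStage S a ι) (τ : STask S a ι) : (letters hS).H τ τ.b :=
  haveI := hS.monoPB
  τ.E.uni

theorem gam_om0 (hS : IsStage S a ι) (τ : STask S a ι) : (letters hS).gam τ (om0 hS τ) = τ.γ :=
  haveI := hS.monoPB
  τ.gam_uni

/-- (i) -/
theorem om_of_rel (hS : IsStage S a ι) (τ : STask S a ι) {d : S} {s t : d ⟶ τ.b}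
    (h : τ.E.rel s t) : ∃ om : (letters hS).H τ d,
      (letters hS).hm τ s om = om0 hS τ ∧ (letters hS).hm τ t om = om0 hS τ :=
  haveI := hS.monoPB
  SPG.exists_of_rel h

theorem rel_of_om (hS : IsStage S a ι) (τ : STask S a ι) {d : S} {s t : d ⟶ τ.b}
    (om : (letters hS).H τ d) (h : (letters hS).hm τ s om = om0 hS τ)
    (h' : (letters hS).hm τ t om = om0 hS τ) : τ.E.rel s t :=
  haveI := hS.monoPB
  SPG.rel_of_map_eq h h'

/-- (ii) -/
theorem rel_of_hm (hS : IsStage S a ι) (τ : STask S a ι) {d : S} {p : d ⟶ τ.b}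
    (om : (letters hS).H τ d) (h : (letters hS).hm τ p om = om0 hS τ) :
    ∃ (B : S) (A : B ⟶ τ.b) (u : B ⟶ d), τ.E.rel A (u ≫ p) :=
  haveI := hS.monoPB
  (SPG.uni_mem_iff p).1 ⟨om, h⟩

/-- (iii) -/
theorem rel_of_hm_eq (hS : IsStage S a ι) (τ : STask S a ι) {B B' d : S} {A : B ⟶ τ.b}
    {A' : B' ⟶ τ.b} (hA : τ.E.rel A A) (hA' : τ.E.rel A' A') {u : B ⟶ d} {u' : B' ⟶ d}
    (om : (letters hS).H τ B) (om' : (letters hS).H τ B')
    (h : (letters hS).hm τ A om = om0 hS τ) (h' : (letters hS).hm τ A' om' = om0 hS τ)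
    (e : (letters hS).hm τ u om = (letters hS).hm τ u' om') :
    ∃ (K : S) (x : K ⟶ B) (y : K ⟶ B'), τ.E.rel (x ≫ A) (y ≫ A') ∧ x ≫ u = y ≫ u' := by
  haveI := hS.monoPB
  have e1 := SPG.eq_germ_of_map_eq hA h
  have e2 := SPG.eq_germ_of_map_eq hA' h'
  subst e1 e2
  exact SPG.map_germ_one_eq_iff.1 e

/-- (iii'), the converse -/
theorem hm_eq_of_rel (hS : IsStage S a ι) (τ : STask S a ι) {B B' d : S} {A : B ⟶ τ.b}
    {A' : B' ⟶ τ.b} (hA : τ.E.rel A A) (hA' : τ.E.rel A' A') {u : B ⟶ d} {u' : B' ⟶ d}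
    (om : (letters hS).H τ B) (om' : (letters hS).H τ B')
    (h : (letters hS).hm τ A om = om0 hS τ) (h' : (letters hS).hm τ A' om' = om0 hS τ)
    (e : ∃ (K : S) (x : K ⟶ B) (y : K ⟶ B'), τ.E.rel (x ≫ A) (y ≫ A') ∧ x ≫ u = y ≫ u') :
    (letters hS).hm τ u om = (letters hS).hm τ u' om' := by
  haveI := hS.monoPB
  have e1 := SPG.eq_germ_of_map_eq hA h
  have e2 := SPG.eq_germ_of_map_eq hA' h'
  subst e1 e2
  exact SPG.map_germ_one_eq_iff.2 e

/-- (iv) the germ `[A, 1]` and its value -/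
theorem exists_omA (hS : IsStage S a ι) (τ : STask S a ι) {B : S} {A : B ⟶ τ.b}
    (hA : τ.E.rel A A) : ∃ om : (letters hS).H τ B, (letters hS).hm τ A om = om0 hS τ ∧
      ∀ γA : a (τ.n + 1) ⟶ B, γA ≫ A = τ.γ → (letters hS).gam τ om = γA := by
  haveI := hS.monoPB
  refine ⟨SPG.germ A hA (𝟙 B), ?_, ?_⟩
  · have h : SPG.map A (SPG.germ A hA (𝟙 B)) = τ.E.uni := by
      rw [SPG.map_germ, Category.id_comp, SPG.germ_self A hA]
    exact h
  · intro γA h
    have h1 : τ.gam (SPG.germ A hA (𝟙 B)) = γA ≫ 𝟙 B := τ.gam_germ A hA _ γA h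
    rw [Category.comp_id] at h1
    exact h1

end Vale.Agent.P323.H172
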