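import Vale.Agent.P323.Z.Step

/-!
# Pseudogroups on a typed stage and the functor `H E : D → Type`

`D` is a category in which all morphisms are mono and all cospans have (weak) pullbacks.
Composition in Mathlib order.
-/

namespace Vale.Agent.P323.Z

open CategoryTheory

universe u

set_option linter.unusedSectionVars false

/-- All maps mono, all cospans have pullbacks. -/
class MonoPB (D : Type u) [Category.{u} D] : Prop where
  mono : ∀ {x y : D} (f : x ⟶ y), Mono f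
  pb : ∀ {x y b : D} (f : x ⟶ b) (g : y ⟶ b), ∃ (z : D) (p : z ⟶ x) (q : z ⟶ y), IsPB p q f g

section Basic

variable {D : Type u} [Category.{u} D] [MonoPB D]

theorem cancel {x y z : D} {f g : x ⟶ y} {h : y ⟶ z} (e : f ≫ h = g ≫ h) : f = g :=
  (MonoPB.mono h).right_cancellation f g e

theorem isPB_id_of_comp {x y z : D} (g : x ⟶ y) (s : y ⟶ z) : IsPB (𝟙 x) g (g ≫ s) s :=
  ⟨by simp, fun u v h => ⟨u, by simp, by
    apply cancel (h := s); rw [← h, Category.assoc]⟩⟩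

theorem isPB_self {x y : D} (s : x ⟶ y) : IsPB (𝟙 x) (𝟙 x) s s :=
  ⟨rfl, fun u v h => ⟨u, by simp, by
    rw [Category.comp_id]; exact cancel (h := s) h⟩⟩

theorem isPB_comp_mono {z x y b c : D} {p : z ⟶ x} {q : z ⟶ y} {f : x ⟶ b} {g : y ⟶ b}
    (h : IsPB p q f g) (m : b ⟶ c) : IsPB p q (f ≫ m) (g ≫ m) :=
  ⟨by rw [← Category.assoc, h.1, Category.assoc], fun u v e => h.2 u v (by
    apply cancel (h := m); simpa using e)⟩

/-- the factorization through a pullback is unique -/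
theorem isPB_unique {z x y b : D} {p : z ⟶ x} {q : z ⟶ y} {f : x ⟶ b} {g : y ⟶ b}
    (_ : IsPB p q f g) {e : D} {w w' : e ⟶ z} (h : w ≫ p = w' ≫ p) : w = w' :=
  cancel h

end Basic

namespace SPG

variable {D : Type u} [Category.{u} D] [MonoPB D] {b : D} (E : SPG D b)

theorem left {d : D} {s t : d ⟶ b} (h : E.rel s t) : E.rel s s := by
  simpa using E.comp h (E.symm h) (isPB_self t)

theorem right {d : D} {s t : d ⟶ b} (h : E.rel s t) : E.rel t t := E.left (E.symm h)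

/-- `k ~ g ≫ s` and `s ~ t` give `k ~ g ≫ t`. -/
theorem trans_restrict {d e : D} {k : e ⟶ b} {g : e ⟶ d} {s t : d ⟶ b}
    (h : E.rel k (g ≫ s)) (h' : E.rel s t) : E.rel k (g ≫ t) := by
  simpa using E.comp h h' (isPB_id_of_comp g s)

theorem trans {d : D} {r s t : d ⟶ b} (h : E.rel r s) (h' : E.rel s t) : E.rel r t := by
  simpa using E.comp h h' (isPB_self s)

/-- restriction of a pair to a smaller element of the domain filter -/
theorem restrict {d e : D} {g : e ⟶ d} {s t : d ⟶ b} (h : E.rel s t)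
    (h' : E.rel (g ≫ s) (g ≫ s)) : E.rel (g ≫ s) (g ≫ t) := E.trans_restrict h' h

theorem restrict' {d e : D} {g : e ⟶ d} {s t : d ⟶ b} (h : E.rel s t)
    (h' : E.rel (g ≫ t) (g ≫ t)) : E.rel (g ≫ s) (g ≫ t) :=
  E.symm (E.restrict (E.symm h) h')

theorem dom_up {d e : D} {g : e ⟶ d} {s : d ⟶ b} (h : E.rel (g ≫ s) (g ≫ s)) : E.rel s s :=
  E.up h

theorem dom_inf {d d' e : D} {s : d ⟶ b} {s' : d' ⟶ b} {g : e ⟶ d} {g' : e ⟶ d'}
    (h : E.rel s s) (h' : E.rel s' s') (hp : IsPB g g' s s') : E.rel (g ≫ s) (g ≫ s) := by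
  have := E.comp h h' hp
  rwa [← hp.1] at this

/-- The trivial pseudogroup on `b`: pairs `(s, s)` with `s` split epi. -/
def triv (b : D) : SPG D b where
  rel := fun {d} s t => s = t ∧ ∃ r : b ⟶ d, r ≫ s = 𝟙 b
  one := ⟨rfl, 𝟙 b, by simp⟩
  symm := by rintro d s t ⟨rfl, h⟩; exact ⟨rfl, h⟩
  comp := by
    rintro d d' e s t s' t' g g' ⟨rfl, r, hr⟩ ⟨rfl, r', hr'⟩ hp
    obtain ⟨w, hw, -⟩ := hp.2 r r' (by rw [hr, hr'])
    exact ⟨hp.1, w, by rw [← Category.assoc, hw, hr]⟩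
  up := by
    rintro d e s t g ⟨h, r, hr⟩
    have h1 : (r ≫ g) ≫ s = 𝟙 b := by rw [Category.assoc]; exact hr
    have h2 : (r ≫ g) ≫ t = 𝟙 b := by rw [Category.assoc, ← h]; exact hr
    refine ⟨?_, r ≫ g, h1⟩
    have h3 : s ≫ (r ≫ g) = 𝟙 d := by
      apply cancel (h := s); rw [Category.assoc, h1, Category.comp_id, Category.id_comp]
    calc s = s ≫ ((r ≫ g) ≫ t) := by rw [h2, Category.comp_id]
      _ = (s ≫ (r ≫ g)) ≫ t := by simp only [Category.assoc]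
      _ = t := by rw [h3, Category.id_comp]

/-! ## Germs -/

/-- Pairs `(A, u)` with `A : B ⟶ b` in the domain filter and `u : B ⟶ x`. -/
structure Pre (x : D) where
  B : D
  A : B ⟶ b
  hA : E.rel A A
  u : B ⟶ x

variable {E}

/-- equivalence of pairs -/
def Pre.R {x : D} (P Q : E.Pre x) : Prop :=
  ∃ (K : D) (g : K ⟶ P.B) (g' : K ⟶ Q.B), E.rel (g ≫ P.A) (g' ≫ Q.A) ∧ g ≫ P.u = g' ≫ Q.u

theorem Pre.R_refl {x : D} (P : E.Pre x) : P.R P :=
  ⟨P.B, 𝟙 _, 𝟙 _, by simpa using P.hA, rfl⟩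

theorem Pre.R_symm {x : D} {P Q : E.Pre x} : P.R Q → Q.R P := by
  rintro ⟨K, g, g', h, h'⟩
  exact ⟨K, g', g, E.symm h, h'.symm⟩

theorem Pre.R_trans {x : D} {P Q R : E.Pre x} : P.R Q → Q.R R → P.R R := by
  rintro ⟨K, g, g', h, h'⟩ ⟨L, k, k', i, i'⟩
  obtain ⟨M, m, n, hmn⟩ := MonoPB.pb g' k
  refine ⟨M, m ≫ g, n ≫ k', ?_, ?_⟩
  · have := E.comp h i (isPB_comp_mono hmn Q.A)
    simpa using this
  · rw [Category.assoc, h', Category.assoc, ← i', ← Category.assoc, hmn.1, Category.assoc]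

variable (E)

instance preSetoid (x : D) : Setoid (E.Pre x) where
  r := Pre.R
  iseqv := ⟨Pre.R_refl, Pre.R_symm, Pre.R_trans⟩

/-- The functor `H_E` on objects. -/
def H (x : D) : Type u := Quotient (E.preSetoid x)

variable {E}

/-- the class of `(A, u)` -/
def germ {x B : D} (A : B ⟶ b) (hA : E.rel A A) (u : B ⟶ x) : E.H x :=
  Quotient.mk (E.preSetoid x) ⟨B, A, hA, u⟩

theorem germ_eq_iff {x B B' : D} {A : B ⟶ b} {hA : E.rel A A} {u : B ⟶ x} {A' : B' ⟶ b}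
    {hA' : E.rel A' A'} {u' : B' ⟶ x} :
    germ A hA u = germ A' hA' u' ↔
      ∃ (K : D) (g : K ⟶ B) (g' : K ⟶ B'), E.rel (g ≫ A) (g' ≫ A') ∧ g ≫ u = g' ≫ u' :=
  ⟨fun h => Quotient.exact h, fun h => Quotient.sound h⟩

theorem ind {x : D} {P : E.H x → Prop}
    (h : ∀ {B : D} (A : B ⟶ b) (hA : E.rel A A) (u : B ⟶ x), P (germ A hA u)) (ω : E.H x) : P ω :=
  Quotient.inductionOn ω fun ⟨_, A, hA, u⟩ => h A hA u

theorem exists_rep {x : D} (ω : E.H x) :
    ∃ (B : D) (A : B ⟶ b) (hA : E.rel A A) (u : B ⟶ x), ω = germ A hA u :=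
  ind (P := fun ω => ∃ (B : D) (A : B ⟶ b) (hA : E.rel A A) (u : B ⟶ x), ω = germ A hA u)
    (fun A hA u => ⟨_, A, hA, u, rfl⟩) ω

theorem germ_eq_of_rel {x B B' : D} {A : B ⟶ b} {hA : E.rel A A} {A' : B' ⟶ b}
    {hA' : E.rel A' A'} {u' : B' ⟶ x} (g : B ⟶ B') (h : E.rel A (g ≫ A')) :
    germ A hA (g ≫ u') = germ A' hA' u' :=
  germ_eq_iff.2 ⟨B, 𝟙 B, g, by simpa using h, by simp⟩

theorem germ_restrict {x K B : D} {A : B ⟶ b} (hA : E.rel A A) (g : K ⟶ B)
    (h : E.rel (g ≫ A) (g ≫ A)) (u : B ⟶ x) : germ (g ≫ A) h (g ≫ u) = germ A hA u :=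
  germ_eq_of_rel g h

/-- functoriality -/
def map {x y : D} (f : x ⟶ y) : E.H x → E.H y :=
  Quotient.map (fun P => ⟨P.B, P.A, P.hA, P.u ≫ f⟩) (by
    rintro P Q ⟨K, g, g', h, h'⟩
    exact ⟨K, g, g', h, by simp only [← Category.assoc]; rw [h']⟩)

@[simp] theorem map_germ {x y B : D} (f : x ⟶ y) (A : B ⟶ b) (hA : E.rel A A) (u : B ⟶ x) :
    map f (germ A hA u) = germ A hA (u ≫ f) := rfl

@[simp] theorem map_id {x : D} (ω : E.H x) : map (𝟙 x) ω = ω := by
  induction ω using ind with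
  | h A hA u => simp

@[simp] theorem map_map {x y z : D} (f : x ⟶ y) (g : y ⟶ z) (ω : E.H x) :
    map g (map f ω) = map (f ≫ g) ω := by
  induction ω using ind with
  | h A hA u => simp

theorem map_comp {x y z : D} (f : x ⟶ y) (g : y ⟶ z) (ω : E.H x) :
    map (f ≫ g) ω = map g (map f ω) := (map_map f g ω).symm

theorem map_inj {x y : D} (f : x ⟶ y) {ω ω' : E.H x} (h : map f ω = map f ω') : ω = ω' := by
  induction ω using ind with
  | h A hA u =>
    induction ω' using ind with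
    | h A' hA' u' =>
      rw [map_germ, map_germ, germ_eq_iff] at h
      obtain ⟨K, g, g', h, h'⟩ := h
      refine germ_eq_iff.2 ⟨K, g, g', h, ?_⟩
      apply cancel (h := f)
      simpa using h'

/-- `H` preserves pullbacks. -/
theorem map_pb {z x y c : D} {p : z ⟶ x} {q : z ⟶ y} {f : x ⟶ c} {g : y ⟶ c}
    (hp : IsPB p q f g) {ω : E.H x} {ω' : E.H y} (h : map f ω = map g ω') :
    ∃ ω₀ : E.H z, map p ω₀ = ω ∧ map q ω₀ = ω' := by
  induction ω using ind with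
  | h A hA u =>
    induction ω' using ind with
    | h A' hA' u' =>
      rw [map_germ, map_germ, germ_eq_iff] at h
      obtain ⟨K, k, k', h, h'⟩ := h
      obtain ⟨w, hw, hw'⟩ := hp.2 (k ≫ u) (k' ≫ u') (by simpa using h')
      refine ⟨germ (k ≫ A) (E.left h) w, ?_, ?_⟩
      · rw [map_germ, hw]; exact germ_restrict hA k (E.left h) u
      · rw [map_germ, hw']; exact germ_eq_of_rel k' h

/-- the universal element `[1, 1]` -/
def uni (E : SPG D b) : E.H b := germ (𝟙 b) E.one (𝟙 b)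

theorem germ_eq_map {x B : D} (A : B ⟶ b) (hA : E.rel A A) (u : B ⟶ x) :
    germ A hA u = map u (germ A hA (𝟙 B)) := by simp

theorem germ_self {B : D} (A : B ⟶ b) (hA : E.rel A A) : germ A hA A = E.uni := by
  have := germ_eq_of_rel (hA := hA) (hA' := E.one) (u' := 𝟙 b) A (by simpa using hA)
  simpa [uni] using this

theorem germ_of_rel {d : D} {s t : d ⟶ b} (h : E.rel s t) : germ s (E.left h) t = E.uni := by
  have := germ_eq_of_rel (hA := E.left h) (hA' := E.one) (u' := 𝟙 b) t (by simpa using h)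
  simpa [uni] using this

/-- (G0) at the level of `H`. -/
theorem exists_of_rel {d : D} {s t : d ⟶ b} (h : E.rel s t) :
    ∃ ω : E.H d, map s ω = E.uni ∧ map t ω = E.uni :=
  ⟨germ s (E.left h) (𝟙 d), by simpa using germ_self s (E.left h), by simpa using germ_of_rel h⟩

/-- if `map s ω = uni` and `map t ω = uni` then a restriction of `(s, t)` is in `E`; hence
`(s, t)` is. -/
theorem rel_of_map_eq {d : D} {s t : d ⟶ b} {ω : E.H d} (h : map s ω = E.uni)
    (h' : map t ω = E.uni) : E.rel s t := by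
  induction ω using ind with
  | h A hA u =>
    rw [map_germ, uni, germ_eq_iff] at h h'
    obtain ⟨K, k, k', h1, h2⟩ := h
    obtain ⟨L, l, l', h3, h4⟩ := h'
    simp only [Category.comp_id] at h1 h2 h3 h4
    subst h2 h4
    -- k ≫ A ~ k ≫ u ≫ s, l ≫ A ~ l ≫ u ≫ t
    obtain ⟨M, m, n, hmn⟩ := MonoPB.pb k l
    have h5 := E.comp (E.symm h1) h3 (isPB_comp_mono hmn A)
    -- m ≫ k ≫ u ≫ s ~ n ≫ l ≫ u ≫ t
    have h6 : n ≫ l ≫ u ≫ t = (m ≫ k ≫ u) ≫ t := by
      rw [← Category.assoc n l, ← hmn.1]; simp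
    rw [h6] at h5
    refine E.up (g := m ≫ k ≫ u) ?_
    simpa using h5

/-- (G4) at the level of `H`: `uni` is in the image of `H p`. -/
theorem uni_mem_iff {d : D} (p : d ⟶ b) :
    (∃ ω : E.H d, map p ω = E.uni) ↔ ∃ (B : D) (A : B ⟶ b) (u : B ⟶ d), E.rel A (u ≫ p) := by
  constructor
  · rintro ⟨ω, h⟩
    induction ω using ind with
    | h A hA u =>
      rw [map_germ, uni, germ_eq_iff] at h
      obtain ⟨K, k, k', h1, h2⟩ := h
      simp only [Category.comp_id] at h1 h2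
      subst h2
      exact ⟨K, k ≫ A, k ≫ u, by simpa using h1⟩
  · rintro ⟨B, A, u, h⟩
    refine ⟨germ A (E.left h) u, ?_⟩
    rw [map_germ]
    exact germ_of_rel h

/-- `ω = germ A hA u` is in the image of `H p` iff a restriction of `u` factors through `p`. -/
theorem germ_mem_iff {x d B : D} {A : B ⟶ b} {hA : E.rel A A} {u : B ⟶ x} (p : d ⟶ x) :
    (∃ ω : E.H d, map p ω = germ A hA u) ↔
      ∃ (K : D) (g : K ⟶ B) (w : K ⟶ d), E.rel (g ≫ A) (g ≫ A) ∧ g ≫ u = w ≫ p := by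
  constructor
  · rintro ⟨ω, h⟩
    induction ω using ind with
    | h A' hA' u' =>
      rw [map_germ, germ_eq_iff] at h
      obtain ⟨K, k, k', h1, h2⟩ := h
      exact ⟨K, k', k ≫ u', E.right h1, by rw [← h2, Category.assoc]⟩
  · rintro ⟨K, g, w, h, h'⟩
    refine ⟨germ (g ≫ A) h w, ?_⟩
    rw [map_germ, ← h']
    exact germ_restrict hA g h u

/-- (G5) at the level of `H`. -/
theorem map_germ_one_eq_iff {B B' d : D} {A : B ⟶ b} {A' : B' ⟶ b} {hA : E.rel A A}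
    {hA' : E.rel A' A'} {u : B ⟶ d} {u' : B' ⟶ d} :
    map u (germ A hA (𝟙 B)) = map u' (germ A' hA' (𝟙 B')) ↔
      ∃ (K : D) (x : K ⟶ B) (y : K ⟶ B'), E.rel (x ≫ A) (y ≫ A') ∧ x ≫ u = y ≫ u' := by
  rw [map_germ, map_germ, germ_eq_iff]; simp

/-- `germ A hA 1` is the unique element over `uni` along `A`. -/
theorem eq_germ_of_map_eq {B : D} {A : B ⟶ b} (hA : E.rel A A) {ω : E.H B}
    (h : map A ω = E.uni) : ω = germ A hA (𝟙 B) := by
  apply map_inj A
  rw [h, map_germ, Category.id_comp, germ_self A hA]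

/-! ## Evaluation at an invariant map -/

/-- `v : d ⟶ b` is `E`-invariant. -/
def Inv (E : SPG D b) {d : D} (v : d ⟶ b) : Prop :=
  ∀ {e : D} {s t : e ⟶ b}, E.rel s t → ∃ v' : d ⟶ e, v' ≫ s = v ∧ v' ≫ t = v

theorem Inv.comp_left {d d' : D} {v : d ⟶ b} (h : E.Inv v) (k : d' ⟶ d) : E.Inv (k ≫ v) := by
  intro e s t hst
  obtain ⟨v', h1, h2⟩ := h hst
  exact ⟨k ≫ v', by rw [Category.assoc, h1], by rw [Category.assoc, h2]⟩

theorem Inv.fac {d B : D} {v : d ⟶ b} (h : E.Inv v) {A : B ⟶ b} (hA : E.rel A A) :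
    ∃ v' : d ⟶ B, v' ≫ A = v := by
  obtain ⟨v', h1, -⟩ := h hA
  exact ⟨v', h1⟩

theorem ev_exists {d x : D} {v : d ⟶ b} (h : E.Inv v) (ω : E.H x) :
    ∃ w : d ⟶ x, ∀ {B : D} (A : B ⟶ b) (hA : E.rel A A) (u : B ⟶ x), ω = germ A hA u →
      ∀ v' : d ⟶ B, v' ≫ A = v → w = v' ≫ u := by
  obtain ⟨B, A, hA, u, rfl⟩ := exists_rep ω
  obtain ⟨v', hv'⟩ := h.fac hA
  refine ⟨v' ≫ u, ?_⟩
  intro B' A' hA' u' he v'' hv''
  obtain ⟨K, k, k', h1, h2⟩ := germ_eq_iff.1 he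
  obtain ⟨z, hz1, hz2⟩ := h h1
  have e1 : z ≫ k = v' := by apply cancel (h := A); rw [Category.assoc, hz1, hv']
  have e2 : z ≫ k' = v'' := by apply cancel (h := A'); rw [Category.assoc, hz2, hv'']
  rw [← e1, ← e2, Category.assoc, h2, Category.assoc]

/-- evaluation of a germ at an invariant map -/
noncomputable def ev {d x : D} {v : d ⟶ b} (h : E.Inv v) (ω : E.H x) : d ⟶ x :=
  (ev_exists h ω).choose

theorem ev_germ {d x B : D} {v : d ⟶ b} (h : E.Inv v) (A : B ⟶ b) (hA : E.rel A A) (u : B ⟶ x)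
    (v' : d ⟶ B) (hv' : v' ≫ A = v) : ev h (germ A hA u) = v' ≫ u :=
  (ev_exists h (germ A hA u)).choose_spec A hA u rfl v' hv'

theorem ev_map {d x y : D} {v : d ⟶ b} (h : E.Inv v) (f : x ⟶ y) (ω : E.H x) :
    ev h (map f ω) = ev h ω ≫ f := by
  induction ω using ind with
  | h A hA u =>
    obtain ⟨v', hv'⟩ := h.fac hA
    rw [map_germ, ev_germ h A hA _ v' hv', ev_germ h A hA _ v' hv', Category.assoc]

theorem ev_comp_left {d d' x : D} {v : d ⟶ b} (h : E.Inv v) (k : d' ⟶ d) (ω : E.H x) :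
    ev (h.comp_left k) ω = k ≫ ev h ω := by
  induction ω using ind with
  | h A hA u =>
    obtain ⟨v', hv'⟩ := h.fac hA
    rw [ev_germ h A hA _ v' hv', ev_germ (h.comp_left k) A hA _ (k ≫ v') (by rw [Category.assoc, hv']),
      Category.assoc]

theorem ev_uni {d : D} {v : d ⟶ b} (h : E.Inv v) : ev h E.uni = v := by
  rw [uni, ev_germ h (𝟙 b) E.one (𝟙 b) v (by simp), Category.comp_id]

theorem ev_congr {d x : D} {v v' : d ⟶ b} (h : E.Inv v) (h' : E.Inv v') (e : v = v')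
    (ω : E.H x) : ev h ω = ev h' ω := by subst e; rfl

end SPG

/-! ## Tasks -/

namespace STask

variable {S : Type u} [Category.{u} S] [MonoPB S] {a : ℕ → S} {ι : ∀ n, a n ⟶ a (n + 1)}
  (τ : STask S a ι)

theorem Inv : τ.E.Inv τ.γ := fun h => τ.inv h

/-- the letters' functor -/
abbrev H (x : S) : Type u := τ.E.H x

/-- `ω γ` -/
noncomputable def gam {x : S} (ω : τ.H x) : a (τ.n + 1) ⟶ x := SPG.ev τ.Inv ω

theorem gam_map {x y : S} (f : x ⟶ y) (ω : τ.H x) : τ.gam (SPG.map f ω) = τ.gam ω ≫ f :=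
  SPG.ev_map _ _ _

theorem gam_uni : τ.gam τ.E.uni = τ.γ := SPG.ev_uni _

theorem gam_germ {x B : S} (A : B ⟶ τ.b) (hA : τ.E.rel A A) (u : B ⟶ x)
    (v' : a (τ.n + 1) ⟶ B) (hv' : v' ≫ A = τ.γ) :
    τ.gam (SPG.germ A hA u) = v' ≫ u := SPG.ev_germ τ.Inv A hA u v' hv'

/-- the restriction of `γ` to an element of the domain filter -/
theorem exists_gamA {B : S} {A : B ⟶ τ.b} (hA : τ.E.rel A A) :
    ∃ v' : a (τ.n + 1) ⟶ B, v' ≫ A = τ.γ := by
  obtain ⟨v', h, -⟩ := τ.inv hA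
  exact ⟨v', h⟩

end STask

theorem IsStage.monoPB {S : Type u} [Category.{u} S] {a : ℕ → S} {ι : ∀ n, a n ⟶ a (n + 1)}
    (hS : IsStage S a ι) : MonoPB S := ⟨hS.mono, hS.pb⟩

end Vale.Agent.P323.Z
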